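import Vale.Agent.P146.R2.H729.TrDef

/-!
# P146: Hilbert-Schmidt bounds for the transport (row E of helper729)
-/

open Matrix
open scoped Matrix.Norms.L2Operator

namespace Vale.Agent.P146.R2.H786

open Vale.Agent.P146.R2.H432 (cheb)
open Vale.Agent.P146.Sk (Ix)
open Vale.Agent.P146.R2.H729.Tr (hm KK StE)

/-- the square of the Hilbert-Schmidt norm -/
def hs {N : ℕ} (X : Matrix (Fin N) (Fin N) ℝ) : ℝ := ∑ i, ∑ j, X i j ^ 2

variable {N : ℕ}

lemma hs_nonneg (X : Matrix (Fin N) (Fin N) ℝ) : 0 ≤ hs X :=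
  Finset.sum_nonneg fun _ _ => Finset.sum_nonneg fun _ _ => sq_nonneg _

lemma hs_transpose (X : Matrix (Fin N) (Fin N) ℝ) : hs Xᵀ = hs X := by
  unfold hs
  rw [Finset.sum_comm]
  rfl

lemma hs_smul (t : ℝ) (X : Matrix (Fin N) (Fin N) ℝ) : hs (t • X) = t ^ 2 * hs X := by
  unfold hs
  simp only [Matrix.smul_apply, smul_eq_mul, mul_pow, Finset.mul_sum]

lemma hs_neg (X : Matrix (Fin N) (Fin N) ℝ) : hs (-X) = hs X := by
  unfold hs
  simp

lemma hs_sum {ι : Type*} (s : Finset ι) (Y : ι → Matrix (Fin N) (Fin N) ℝ) :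
    hs (∑ k ∈ s, Y k) ≤ s.card * ∑ k ∈ s, hs (Y k) := by
  unfold hs
  calc ∑ i, ∑ j, (∑ k ∈ s, Y k) i j ^ 2
      ≤ ∑ i, ∑ j, (s.card : ℝ) * ∑ k ∈ s, (Y k) i j ^ 2 := by
        refine Finset.sum_le_sum fun i _ => Finset.sum_le_sum fun j _ => ?_
        rw [Matrix.sum_apply]
        exact sq_sum_le_card_mul_sum_sq
    _ = s.card * ∑ k ∈ s, ∑ i, ∑ j, (Y k) i j ^ 2 := by
        simp only [← Finset.mul_sum]
        congr 1
        calc ∑ i, ∑ j, ∑ k ∈ s, (Y k) i j ^ 2 = ∑ i, ∑ k ∈ s, ∑ j, (Y k) i j ^ 2 :=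
              Finset.sum_congr rfl fun i _ => Finset.sum_comm
          _ = ∑ k ∈ s, ∑ i, ∑ j, (Y k) i j ^ 2 := Finset.sum_comm

lemma hs_add_le (X Y : Matrix (Fin N) (Fin N) ℝ) : hs (X + Y) ≤ 2 * (hs X + hs Y) := by
  unfold hs
  rw [← Finset.sum_add_distrib, Finset.mul_sum]
  refine Finset.sum_le_sum fun i _ => ?_
  rw [← Finset.sum_add_distrib, Finset.mul_sum]
  refine Finset.sum_le_sum fun j _ => ?_
  rw [Matrix.add_apply]
  nlinarith [sq_nonneg (X i j - Y i j)]

lemma mulVec_sq_le (P : Matrix (Fin N) (Fin N) ℝ) (v : Fin N → ℝ) :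
    ∑ i, (P *ᵥ v) i ^ 2 ≤ ‖P‖ ^ 2 * ∑ i, v i ^ 2 := by
  have h := Matrix.l2_opNorm_mulVec P (WithLp.toLp 2 v)
  have h2 := pow_le_pow_left₀ (norm_nonneg _) h 2
  rw [mul_pow, EuclideanSpace.real_norm_sq_eq, EuclideanSpace.real_norm_sq_eq] at h2
  simpa using h2

lemma hs_mul_le (P X : Matrix (Fin N) (Fin N) ℝ) : hs (P * X) ≤ ‖P‖ ^ 2 * hs X := by
  have h : ∀ Z : Matrix (Fin N) (Fin N) ℝ, hs Z = ∑ j, ∑ i, Z i j ^ 2 := by
    intro Z
    unfold hs
    exact Finset.sum_comm
  rw [h, h, Finset.mul_sum]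
  refine Finset.sum_le_sum fun j _ => ?_
  have := mulVec_sq_le P (fun i => X i j)
  simpa [Matrix.mul_apply, Matrix.mulVec, dotProduct] using this

lemma cheb_symm {A : Matrix (Fin N) (Fin N) ℝ} (hA : A.IsSymm) :
    ∀ k, (cheb k A).IsSymm ∧ A * cheb k A = cheb k A * A := by
  have key : ∀ k, ((cheb k A).IsSymm ∧ A * cheb k A = cheb k A * A) ∧
      ((cheb (k + 1) A).IsSymm ∧ A * cheb (k + 1) A = cheb (k + 1) A * A) := by
    intro k
    induction k with
    | zero =>
      refine ⟨⟨?_, ?_⟩, ⟨?_, ?_⟩⟩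
      · simp [cheb]
      · simp [cheb]
      · simpa [cheb] using hA
      · simp [cheb]
    | succ k ih =>
      refine ⟨ih.2, ?_, ?_⟩
      · show (A * cheb (k + 1) A - cheb k A)ᵀ = A * cheb (k + 1) A - cheb k A
        rw [Matrix.transpose_sub, Matrix.transpose_mul, ih.2.1, ih.1.1, hA, ih.2.2]
      · show A * (A * cheb (k + 1) A - cheb k A) = (A * cheb (k + 1) A - cheb k A) * A
        rw [Matrix.mul_sub, Matrix.sub_mul, ih.1.2, Matrix.mul_assoc, ← ih.2.2]
  exact fun k => (key k).1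

lemma hs_mul_right_le (X Q : Matrix (Fin N) (Fin N) ℝ) (hQ : Q.IsSymm) :
    hs (X * Q) ≤ ‖Q‖ ^ 2 * hs X := by
  rw [← hs_transpose (X * Q), Matrix.transpose_mul, hQ, ← hs_transpose X]
  exact hs_mul_le _ _

lemma norm_cheb {A : Matrix (Fin N) (Fin N) ℝ} (hA : ‖A‖ ≤ 3) : ∀ k, ‖cheb k A‖ ≤ 4 ^ k := by
  have key : ∀ k, ‖cheb k A‖ ≤ 4 ^ k ∧ ‖cheb (k + 1) A‖ ≤ 4 ^ (k + 1) := by
    intro k
    induction k with
    | zero =>
      constructor
      · show ‖(1 : Matrix (Fin N) (Fin N) ℝ)‖ ≤ _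
        rcases isEmpty_or_nonempty (Fin N) with h | h
        · have : (1 : Matrix (Fin N) (Fin N) ℝ) = 0 := Subsingleton.elim _ _
          rw [this]; simp
        · rw [CStarRing.norm_one]; simp
      · show ‖A‖ ≤ _
        norm_num
        linarith
    | succ k ih =>
      refine ⟨ih.2, ?_⟩
      show ‖A * cheb (k + 1) A - cheb k A‖ ≤ _
      have h1 : ‖A * cheb (k + 1) A‖ ≤ 3 * 4 ^ (k + 1) :=
        (norm_mul_le _ _).trans (mul_le_mul hA ih.2 (norm_nonneg _) (by norm_num))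
      have h2 := norm_sub_le (A * cheb (k + 1) A) (cheb k A)
      have h3 : (4 : ℝ) ^ (k + 2) = 4 * 4 ^ (k + 1) := by ring
      have h4 : (4 : ℝ) ^ (k + 1) = 4 * 4 ^ k := by ring
      have h5 : (0 : ℝ) < 4 ^ k := by positivity
      show _ ≤ (4 : ℝ) ^ (k + 2)
      nlinarith [ih.1]
  exact fun k => (key k).1

lemma hs_cheb_sub {A B : Matrix (Fin N) (Fin N) ℝ} (hA : ‖A‖ ≤ 3) (hB : ‖B‖ ≤ 3)
    (sB : B.IsSymm) : ∀ k, hs (cheb k A - cheb k B) ≤ 100 ^ k * hs (A - B) := by
  have h0 := hs_nonneg (A - B)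
  have key : ∀ k, hs (cheb k A - cheb k B) ≤ 100 ^ k * hs (A - B) ∧
      hs (cheb (k + 1) A - cheb (k + 1) B) ≤ 100 ^ (k + 1) * hs (A - B) := by
    intro k
    induction k with
    | zero =>
      constructor
      · have : (cheb 0 A - cheb 0 B) = 0 := by simp [cheb]
        rw [this]
        simpa [hs] using h0
      · show hs (A - B) ≤ _
        norm_num
        linarith
    | succ k ih =>
      refine ⟨ih.2, ?_⟩
      have e : cheb (k + 2) A - cheb (k + 2) B = (A * (cheb (k + 1) A - cheb (k + 1) B) +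
          (A - B) * cheb (k + 1) B) + -(cheb k A - cheb k B) := by
        show (A * cheb (k + 1) A - cheb k A) - (B * cheb (k + 1) B - cheb k B) = _
        noncomm_ring
      show hs (cheb (k + 2) A - cheb (k + 2) B) ≤ _
      rw [e]
      refine (hs_add_le _ _).trans ?_
      have h1 := hs_add_le (A * (cheb (k + 1) A - cheb (k + 1) B)) ((A - B) * cheb (k + 1) B)
      have h2 := hs_mul_le A (cheb (k + 1) A - cheb (k + 1) B)
      have h3 := hs_mul_right_le (A - B) (cheb (k + 1) B) (cheb_symm sB (k + 1)).1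
      have h4 : ‖A‖ ^ 2 ≤ 9 := by nlinarith [norm_nonneg A]
      have h5 : ‖cheb (k + 1) B‖ ^ 2 ≤ 16 ^ (k + 1) := by
        have := pow_le_pow_left₀ (norm_nonneg _) (norm_cheb hB (k + 1)) 2
        refine this.trans (le_of_eq ?_)
        rw [← pow_mul, mul_comm, pow_mul]; norm_num
      have h6 := hs_nonneg (cheb (k + 1) A - cheb (k + 1) B)
      have h7 : hs (A * (cheb (k + 1) A - cheb (k + 1) B)) ≤ 9 * (100 ^ (k + 1) * hs (A - B)) :=
        h2.trans (mul_le_mul h4 ih.2 h6 (by norm_num))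
      have h8 : hs ((A - B) * cheb (k + 1) B) ≤ 16 ^ (k + 1) * hs (A - B) :=
        h3.trans (mul_le_mul_of_nonneg_right h5 h0)
      rw [hs_neg]
      have h9 : (16 : ℝ) ^ (k + 1) ≤ 100 ^ (k + 1) := pow_le_pow_left₀ (by norm_num) (by norm_num) _
      have h10 := mul_le_mul_of_nonneg_right h9 h0
      have h11 : (100 : ℝ) ^ (k + 1) = 100 * 100 ^ k := by ring
      have h12 : (100 : ℝ) ^ (k + 2) = 100 * (100 * 100 ^ k) := by ring
      have h13 : 0 ≤ (100 : ℝ) ^ k * hs (A - B) := by positivity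
      have ih1 := ih.1
      show _ ≤ (100 : ℝ) ^ (k + 2) * hs (A - B)
      rw [h11] at h7 h10
      rw [h12]
      nlinarith
  exact fun k => (key k).1

/-- the matrix of a vector indexed by the entries -/
def mx (x : Ix N → ℝ) : Matrix (Fin N) (Fin N) ℝ := Matrix.of fun i j => x (i, j)

lemma hs_mx (x : Ix N → ℝ) : hs (mx x) = ∑ e, x e ^ 2 := by
  unfold hs mx
  rw [Fintype.sum_prod_type]
  rfl

lemma KK_mulVec (L : ℕ) (c : ℕ → ℝ) (A : Matrix (Fin N) (Fin N) ℝ) (x : Ix N → ℝ) :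
    mx (KK L c A *ᵥ x) = ∑ k ∈ Finset.range L, ∑ a ∈ Finset.range (k + 1),
      (c k / 2) • (cheb a A * mx x * cheb (k - a) A + cheb a A * (mx x)ᵀ * cheb (k - a) A) := by
  ext i j
  have h1 : mx (KK L c A *ᵥ x) i j = ∑ f : Ix N, KK L c A (i, j) f * x f := rfl
  rw [h1]
  simp only [Matrix.sum_apply, Matrix.smul_apply, Matrix.add_apply, smul_eq_mul, Matrix.mul_apply,
    KK, Matrix.of_apply, mx, Matrix.transpose_apply]
  calc ∑ f : Ix N, (1 / 2 * ∑ k ∈ Finset.range L, c k * ∑ a ∈ Finset.range (k + 1),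
        (cheb a A i f.1 * cheb (k - a) A f.2 j + cheb a A i f.2 * cheb (k - a) A f.1 j)) * x f
      = ∑ f : Ix N, ∑ k ∈ Finset.range L, ∑ a ∈ Finset.range (k + 1), c k / 2 *
        ((cheb a A i f.1 * cheb (k - a) A f.2 j + cheb a A i f.2 * cheb (k - a) A f.1 j) * x f) := by
        refine Finset.sum_congr rfl fun f _ => ?_
        rw [Finset.mul_sum, Finset.sum_mul]
        refine Finset.sum_congr rfl fun k _ => ?_
        rw [Finset.mul_sum, Finset.mul_sum, Finset.sum_mul]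
        refine Finset.sum_congr rfl fun a _ => ?_
        ring
    _ = ∑ k ∈ Finset.range L, ∑ a ∈ Finset.range (k + 1), ∑ f : Ix N, c k / 2 *
        ((cheb a A i f.1 * cheb (k - a) A f.2 j + cheb a A i f.2 * cheb (k - a) A f.1 j) * x f) := by
        rw [Finset.sum_comm]
        exact Finset.sum_congr rfl fun k _ => Finset.sum_comm
    _ = _ := by
        refine Finset.sum_congr rfl fun k _ => Finset.sum_congr rfl fun a _ => ?_
        rw [← Finset.mul_sum]
        congr 1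
        rw [Fintype.sum_prod_type]
        simp only [Finset.sum_mul, add_mul, Finset.sum_add_distrib]
        congr 1
        · rw [Finset.sum_comm]
          refine Finset.sum_congr rfl fun p _ => Finset.sum_congr rfl fun q _ => ?_
          ring
        · refine Finset.sum_congr rfl fun p _ => Finset.sum_congr rfl fun q _ => ?_
          ring

theorem stE : StE := by
  intro L c
  set C1 : ℝ := L * ∑ k ∈ Finset.range L, ((k : ℝ) + 1) * (((k : ℝ) + 1) * (c k ^ 2 * 16 ^ k))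
    with hC1
  set C2 : ℝ := L * ∑ k ∈ Finset.range L, c k ^ 2 * 100 ^ (k + 1) with hC2
  have p1 : 0 ≤ C1 := by positivity
  have p2 : 0 ≤ C2 := by positivity
  refine ⟨C1 + C2 + 1, by positivity, fun N A B sA sB hA hB => ⟨fun x => ?_, ?_⟩⟩
  · have e1 : ∑ e, (KK L c A *ᵥ x) e ^ 2 = hs (mx (KK L c A *ᵥ x)) := (hs_mx _).symm
    rw [e1, ← hs_mx x]
    refine le_trans ?_ (mul_le_mul_of_nonneg_right (show C1 ≤ C1 + C2 + 1 by linarith)
      (hs_nonneg _))
    rw [KK_mulVec]
    refine (hs_sum _ _).trans ?_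
    rw [Finset.card_range, hC1, mul_assoc, Finset.sum_mul]
    refine mul_le_mul_of_nonneg_left (Finset.sum_le_sum fun k _ => ?_) (by positivity)
    refine (hs_sum _ _).trans ?_
    rw [Finset.card_range, mul_assoc]
    push_cast
    refine mul_le_mul_of_nonneg_left ?_ (by positivity)
    rw [mul_assoc]
    have : ∀ a ∈ Finset.range (k + 1), hs ((c k / 2) • (cheb a A * mx x * cheb (k - a) A +
        cheb a A * (mx x)ᵀ * cheb (k - a) A)) ≤ c k ^ 2 * 16 ^ k * hs (mx x) := by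
      intro a ha
      have ha' : a ≤ k := by
        have := Finset.mem_range.1 ha
        omega
      have b : ∀ X : Matrix (Fin N) (Fin N) ℝ,
          hs (cheb a A * X * cheb (k - a) A) ≤ 16 ^ k * hs X := by
        intro X
        refine (hs_mul_right_le _ _ (cheb_symm sA _).1).trans ?_
        have g1 := hs_mul_le (cheb a A) X
        have g2 : ∀ m, ‖cheb m A‖ ^ 2 ≤ 16 ^ m := by
          intro m
          have := pow_le_pow_left₀ (norm_nonneg _) (norm_cheb hA m) 2
          refine this.trans (le_of_eq ?_)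
          rw [← pow_mul, mul_comm, pow_mul]; norm_num
        have g3 : (16 : ℝ) ^ k = 16 ^ (k - a) * 16 ^ a := by
          rw [← pow_add]; congr 1; omega
        rw [g3, mul_assoc]
        refine mul_le_mul (g2 _) (g1.trans (mul_le_mul_of_nonneg_right (g2 _) (hs_nonneg _)))
          (hs_nonneg _) (by positivity)
      rw [hs_smul]
      have g := hs_add_le (cheb a A * mx x * cheb (k - a) A) (cheb a A * (mx x)ᵀ * cheb (k - a) A)
      have g4 := b (mx x)
      have g5 := b (mx x)ᵀ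
      rw [hs_transpose] at g5
      have g6 : hs (cheb a A * mx x * cheb (k - a) A + cheb a A * (mx x)ᵀ * cheb (k - a) A) ≤
          4 * (16 ^ k * hs (mx x)) := by linarith
      calc (c k / 2) ^ 2 * hs _ ≤ (c k / 2) ^ 2 * (4 * (16 ^ k * hs (mx x))) :=
            mul_le_mul_of_nonneg_left g6 (sq_nonneg _)
        _ = c k ^ 2 * 16 ^ k * hs (mx x) := by ring
    refine (Finset.sum_le_sum this).trans ?_
    rw [Finset.sum_const, Finset.card_range, nsmul_eq_mul]
    push_cast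
    linarith
  · have e1 : ∀ X Y : Matrix (Fin N) (Fin N) ℝ, ∑ i, ∑ j, (X i j - Y i j) ^ 2 = hs (X - Y) :=
      fun X Y => rfl
    rw [e1, e1]
    refine le_trans ?_ (mul_le_mul_of_nonneg_right (show C2 ≤ C1 + C2 + 1 by linarith)
      (hs_nonneg _))
    have e2 : hm L c A - hm L c B =
        ∑ k ∈ Finset.range L, c k • (cheb (k + 1) A - cheb (k + 1) B) := by
      unfold hm
      rw [← Finset.sum_sub_distrib]
      exact Finset.sum_congr rfl fun k _ => (smul_sub _ _ _).symm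
    rw [e2]
    refine (hs_sum _ _).trans ?_
    rw [Finset.card_range, hC2, mul_assoc, Finset.sum_mul]
    refine mul_le_mul_of_nonneg_left (Finset.sum_le_sum fun k _ => ?_) (by positivity)
    rw [hs_smul, mul_assoc]
    exact mul_le_mul_of_nonneg_left (hs_cheb_sub hA hB sB (k + 1)) (sq_nonneg _)

end Vale.Agent.P146.R2.H786
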