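import Vale.Agent.P146.R2.H952.XDef
import Vale.Agent.P146.R2.H786.RowE

/-!
# P146: norm bounds for the transport (row E' of helper952)
-/

open Matrix
open scoped Matrix.Norms.L2Operator

namespace Vale.Agent.P146.R2.H786.X

open Vale.Agent.P146.R2.H432 (cheb)
open Vale.Agent.P146.Sk (Ix)
open Vale.Agent.P146.R2.H729.Tr (hm KK)
open Vale.Agent.P146.R2.H952.X (nrm StE')

variable {N : ℕ}

/-- the entries of a matrix as a Euclidean vector -/
noncomputable def ev (X : Matrix (Fin N) (Fin N) ℝ) : EuclideanSpace ℝ (Fin N × Fin N) :=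
  WithLp.toLp 2 fun e => X e.1 e.2

lemma ev_sq (X : Matrix (Fin N) (Fin N) ℝ) : ‖ev X‖ ^ 2 = hs X := by
  rw [EuclideanSpace.real_norm_sq_eq, Fintype.sum_prod_type]
  rfl

lemma ev_add (X Y : Matrix (Fin N) (Fin N) ℝ) : ev (X + Y) = ev X + ev Y := rfl

lemma ev_smul (t : ℝ) (X : Matrix (Fin N) (Fin N) ℝ) : ev (t • X) = t • ev X := rfl

lemma ev_sum {ι : Type*} (s : Finset ι) (Y : ι → Matrix (Fin N) (Fin N) ℝ) :
    ev (∑ k ∈ s, Y k) = ∑ k ∈ s, ev (Y k) := by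
  classical
  induction s using Finset.induction_on with
  | empty => simp only [Finset.sum_empty]; rfl
  | insert a s ha ih => rw [Finset.sum_insert ha, Finset.sum_insert ha, ev_add, ih]

lemma ev_le {X : Matrix (Fin N) (Fin N) ℝ} {c : ℝ} (hc : 0 ≤ c) (h : hs X ≤ c ^ 2) :
    ‖ev X‖ ≤ c := by
  rw [← ev_sq] at h
  exact (sq_le_sq₀ (norm_nonneg _) hc).1 h

lemma ev_transpose (X : Matrix (Fin N) (Fin N) ℝ) : ‖ev Xᵀ‖ = ‖ev X‖ := by
  have h : ‖ev Xᵀ‖ ^ 2 = ‖ev X‖ ^ 2 := by rw [ev_sq, ev_sq, hs_transpose]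
  exact (sq_eq_sq₀ (norm_nonneg _) (norm_nonneg _)).1 h

lemma hs_cheb_mul {A : Matrix (Fin N) (Fin N) ℝ} (sA : A.IsSymm) {q : ℝ} (hq : 1 ≤ q)
    (hA : ‖A‖ ≤ q + q⁻¹) (a : ℕ) (X : Matrix (Fin N) (Fin N) ℝ) :
    hs (cheb a A * X) ≤ (((a : ℝ) + 1) * q ^ a) ^ 2 * hs X := by
  have h : ∀ Z : Matrix (Fin N) (Fin N) ℝ, hs Z = ∑ j, ∑ i, Z i j ^ 2 := by
    intro Z
    unfold hs
    exact Finset.sum_comm
  have hop : ∀ v : Fin N → ℝ, ∑ i, (A.mulVec v) i ^ 2 ≤ (q + q⁻¹) ^ 2 * ∑ i, v i ^ 2 := by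
    intro v
    refine (mulVec_sq_le A v).trans ?_
    exact mul_le_mul_of_nonneg_right (pow_le_pow_left₀ (norm_nonneg _) hA 2)
      (Finset.sum_nonneg fun _ _ => sq_nonneg _)
  have hsy : ∀ i j, A i j = A j i := fun i j => (sA.apply i j).symm
  rw [h, h, Finset.mul_sum]
  refine Finset.sum_le_sum fun j _ => ?_
  have := Vale.Agent.P146.R2.H432.cheb_norm hsy hq hop a (fun i => X i j)
  simpa [Matrix.mul_apply, Matrix.mulVec, dotProduct] using this

lemma ev_cheb_mul {A : Matrix (Fin N) (Fin N) ℝ} (sA : A.IsSymm) {q : ℝ} (hq : 1 ≤ q)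
    (hA : ‖A‖ ≤ q + q⁻¹) (a : ℕ) (X : Matrix (Fin N) (Fin N) ℝ) :
    ‖ev (cheb a A * X)‖ ≤ (((a : ℝ) + 1) * q ^ a) * ‖ev X‖ := by
  refine ev_le (by positivity) ?_
  rw [mul_pow, ev_sq]
  exact hs_cheb_mul sA hq hA a X

lemma ev_mul_cheb {A : Matrix (Fin N) (Fin N) ℝ} (sA : A.IsSymm) {q : ℝ} (hq : 1 ≤ q)
    (hA : ‖A‖ ≤ q + q⁻¹) (a : ℕ) (X : Matrix (Fin N) (Fin N) ℝ) :
    ‖ev (X * cheb a A)‖ ≤ (((a : ℝ) + 1) * q ^ a) * ‖ev X‖ := by
  rw [← ev_transpose (X * cheb a A), Matrix.transpose_mul, (cheb_symm sA a).1, ← ev_transpose X]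
  exact ev_cheb_mul sA hq hA a _

lemma ev_sandwich {A B : Matrix (Fin N) (Fin N) ℝ} (sA : A.IsSymm) (sB : B.IsSymm) {q : ℝ}
    (hq : 1 ≤ q) (hA : ‖A‖ ≤ q + q⁻¹) (hB : ‖B‖ ≤ q + q⁻¹) (a b : ℕ)
    (X : Matrix (Fin N) (Fin N) ℝ) :
    ‖ev (cheb a A * X * cheb b B)‖ ≤
      (((a : ℝ) + 1) * q ^ a) * (((b : ℝ) + 1) * q ^ b) * ‖ev X‖ := by
  refine (ev_mul_cheb sB hq hB b _).trans ?_
  have h1 := ev_cheb_mul sA hq hA a X
  have h2 : 0 ≤ ((b : ℝ) + 1) * q ^ b := by positivity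
  nlinarith [mul_le_mul_of_nonneg_left h1 h2]

/-- the difference of two Chebyshev polynomials -/
lemma cheb_sub (A B : Matrix (Fin N) (Fin N) ℝ) : ∀ k, cheb k A - cheb k B =
    ∑ a ∈ Finset.range k, cheb a A * (A - B) * cheb (k - 1 - a) B := by
  have key : ∀ k, (cheb k A - cheb k B =
      ∑ a ∈ Finset.range k, cheb a A * (A - B) * cheb (k - 1 - a) B) ∧
      (cheb (k + 1) A - cheb (k + 1) B =
      ∑ a ∈ Finset.range (k + 1), cheb a A * (A - B) * cheb (k - a) B) := by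
    intro k
    induction k with
    | zero =>
      constructor
      · simp [cheb]
      · simp [cheb]
    | succ k ih =>
      refine ⟨ih.2, ?_⟩
      have e1 : cheb (k + 2) A - cheb (k + 2) B = A * (cheb (k + 1) A - cheb (k + 1) B) +
          (A - B) * cheb (k + 1) B - (cheb k A - cheb k B) := by
        show (A * cheb (k + 1) A - cheb k A) - (B * cheb (k + 1) B - cheb k B) = _
        noncomm_ring
      show cheb (k + 2) A - cheb (k + 2) B = _
      rw [e1, Finset.sum_range_succ', Finset.sum_range_succ', ih.1, ih.2,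
        Finset.sum_range_succ']
      have e2 : ∑ a ∈ Finset.range k, cheb (a + 1 + 1) A * (A - B) * cheb (k + 1 - (a + 1 + 1)) B
          = A * (∑ a ∈ Finset.range k, cheb (a + 1) A * (A - B) * cheb (k - (a + 1)) B) -
            ∑ a ∈ Finset.range k, cheb a A * (A - B) * cheb (k - 1 - a) B := by
        rw [Finset.mul_sum, ← Finset.sum_sub_distrib]
        refine Finset.sum_congr rfl fun a _ => ?_
        have i1 : k + 1 - (a + 1 + 1) = k - (a + 1) := by omega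
        have i2 : k - 1 - a = k - (a + 1) := by omega
        rw [i1, i2]
        show (A * cheb (a + 1) A - cheb a A) * (A - B) * _ = _
        noncomm_ring
      rw [e2]
      have c0 : cheb 0 A = 1 := rfl
      have c1 : cheb (0 + 1) A = A := rfl
      have i3 : k + 1 - (0 + 1) = k := by omega
      rw [c0, c1, i3]
      simp only [Nat.sub_zero]
      noncomm_ring
  exact fun k => (key k).1

theorem stE' : StE' := by
  intro L c q hq N A B sA sB hA hB
  have hn : 0 ≤ nrm L c q := by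
    unfold nrm
    refine Finset.sum_nonneg fun k _ => mul_nonneg (abs_nonneg _) (Finset.sum_nonneg fun a _ => ?_)
    positivity
  refine ⟨fun x => ?_, ?_⟩
  · have e1 : ∑ e, (KK L c A *ᵥ x) e ^ 2 = ‖ev (mx (KK L c A *ᵥ x))‖ ^ 2 := by
      rw [ev_sq, hs_mx]
    have e2 : ∑ e, x e ^ 2 = ‖ev (mx x)‖ ^ 2 := by rw [ev_sq, hs_mx]
    rw [e1, e2, ← mul_pow]
    refine pow_le_pow_left₀ (norm_nonneg _) ?_ 2
    rw [KK_mulVec, ev_sum]
    refine (norm_sum_le _ _).trans ?_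
    unfold nrm
    rw [Finset.sum_mul]
    refine Finset.sum_le_sum fun k _ => ?_
    rw [ev_sum]
    refine (norm_sum_le _ _).trans ?_
    rw [mul_assoc, Finset.sum_mul, Finset.mul_sum]
    refine Finset.sum_le_sum fun a _ => ?_
    rw [ev_smul, norm_smul, ev_add, Real.norm_eq_abs, abs_div, abs_two]
    have h1 := ev_sandwich sA sA hq hA hA a (k - a) (mx x)
    have h2 := ev_sandwich sA sA hq hA hA a (k - a) (mx x)ᵀ
    rw [ev_transpose] at h2
    have h3 := norm_add_le (ev (cheb a A * mx x * cheb (k - a) A))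
      (ev (cheb a A * (mx x)ᵀ * cheb (k - a) A))
    have h4 := abs_nonneg (c k)
    have h5 : ‖ev (cheb a A * mx x * cheb (k - a) A) + ev (cheb a A * (mx x)ᵀ * cheb (k - a) A)‖ ≤
      2 * ((((a : ℝ) + 1) * q ^ a) * ((((k - a : ℕ) : ℝ) + 1) * q ^ (k - a)) * ‖ev (mx x)‖) := by
      linarith
    calc |c k| / 2 * ‖ev (cheb a A * mx x * cheb (k - a) A) +
          ev (cheb a A * (mx x)ᵀ * cheb (k - a) A)‖
        ≤ |c k| / 2 * (2 * ((((a : ℝ) + 1) * q ^ a) * ((((k - a : ℕ) : ℝ) + 1) * q ^ (k - a)) *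
          ‖ev (mx x)‖)) := mul_le_mul_of_nonneg_left h5 (by positivity)
      _ = _ := by ring
  · have e1 : ∀ X Y : Matrix (Fin N) (Fin N) ℝ, ∑ i, ∑ j, (X i j - Y i j) ^ 2 = ‖ev (X - Y)‖ ^ 2 :=
      fun X Y => (ev_sq (X - Y)).symm
    rw [e1, e1, ← mul_pow]
    refine pow_le_pow_left₀ (norm_nonneg _) ?_ 2
    have e2 : hm L c A - hm L c B =
        ∑ k ∈ Finset.range L, c k • (cheb (k + 1) A - cheb (k + 1) B) := by
      unfold hm
      rw [← Finset.sum_sub_distrib]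
      exact Finset.sum_congr rfl fun k _ => (smul_sub _ _ _).symm
    rw [e2, ev_sum]
    refine (norm_sum_le _ _).trans ?_
    unfold nrm
    rw [Finset.sum_mul]
    refine Finset.sum_le_sum fun k _ => ?_
    rw [ev_smul, norm_smul, Real.norm_eq_abs, mul_assoc]
    refine mul_le_mul_of_nonneg_left ?_ (abs_nonneg _)
    rw [cheb_sub, ev_sum, Finset.sum_mul]
    refine (norm_sum_le _ _).trans (Finset.sum_le_sum fun a _ => ?_)
    have i1 : k + 1 - 1 - a = k - a := by omega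
    rw [i1]
    exact ev_sandwich sA sB hq hA hB a (k - a) (A - B)

end Vale.Agent.P146.R2.H786.X
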